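import Vale.Agent.P237.Fin

/-! Petty's projection-volume inequality, strictly, for every polytope in `ℝ^n` cut out by at most
`(e / (e - 1)) ^ (n / 2) / 2` half-spaces. -/

open MeasureTheory Vale.Agent.P237

theorem Vale.Agent.Results.P237.FewFacets.result (n N : ℕ) (hn : 3 ≤ n)
    (hN : 2 * (N : ℝ) ≤ √(Real.exp 1 / (Real.exp 1 - 1)) ^ n)
    (a : Fin N → EuclideanSpace ℝ (Fin n)) (b : Fin N → ℝ)
    (K : Set (EuclideanSpace ℝ (Fin n))) (hKab : K = polyhedron a b)
    (hK : IsCompact K) (hi : (interior K).Nonempty) :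
    kappa (n - 1) ^ n / kappa n ^ (n - 2) * evol K ^ (n - 1) < evol (projBody K) := by
  subst hKab
  exact main_real hn hN a b hK hi
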